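import Vale.Agent.P092.Defs
import Vale.Agent.P092.H414.Equiv
import Mathlib.Analysis.Normed.Operator.Extend

/-!
# Commutation with a trace preserving representation of `L(Λ)`

`Ψ` is a `*`-representation of `L(Λ)` on `H` for which there are many vectors `w` with
`‖Ψ(y) w‖ ≤ C ‖y δ_1‖`. Then every operator commuting with all `Ψ(v_s)` commutes with all `Ψ(y)`,
and the vectors `w` generate Bessel families.
-/

namespace Vale.Agent.P092.H245

open scoped InnerProductSpace ENNReal ComplexConjugate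
open ContinuousLinearMap InnerProductSpace Vale.Agent.P092

noncomputable section

section delta

variable {Λ : Type}

theorem inner_delta (g : Λ) (x : ell2 Λ) : ⟪delta g, x⟫_ℂ = x g := by
  let _ := Classical.decEq Λ
  rw [delta, lp.inner_single_left]
  simp

theorem delta_total (x : ell2 Λ) (h : ∀ g : Λ, ⟪delta g, x⟫_ℂ = 0) : x = 0 := by
  ext g
  rw [← inner_delta, h g]
  rfl

theorem delta_apply [DecidableEq Λ] (g h : Λ) :
    (delta g : ell2 Λ) h = if h = g then 1 else 0 := by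
  simp only [delta, lp.single_apply, Pi.single_apply]
  congr

variable [Group Λ]

theorem lreg_apply (g : Λ) (x : ell2 Λ) (h : Λ) : (lreg g x : ell2 Λ) h = x (g⁻¹ * h) := rfl

theorem lreg_delta (g h : Λ) : lreg g (delta h) = delta (g * h) := by
  classical
  ext x
  rw [lreg_apply, delta_apply, delta_apply]
  congr 1
  exact propext inv_mul_eq_iff_eq_mul

theorem star_lreg (g : Λ) : star (lreg g) = lreg g⁻¹ := by
  rw [ContinuousLinearMap.star_eq_adjoint]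
  symm
  rw [ContinuousLinearMap.eq_adjoint_iff]
  intro x y
  have e : ∀ z : ell2 Λ, lreg g (lreg g⁻¹ z) = z := by
    intro z
    ext h
    rw [lreg_apply, lreg_apply, inv_inv, mul_inv_cancel_left]
  have h1 : ∀ a b : ell2 Λ, ⟪lreg g a, lreg g b⟫_ℂ = ⟪a, b⟫_ℂ := by
    intro a b
    exact (relabel (Equiv.mulLeft g)).inner_map_map a b
  rw [← h1, e]

/-- Orbit map `y ↦ y δ_1`. -/
def orb : LG Λ →ₗ[ℂ] ell2 Λ where
  toFun y := (y : ell2 Λ →L[ℂ] ell2 Λ) (delta 1)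
  map_add' _ _ := rfl
  map_smul' _ _ := rfl

theorem orb_apply (y : LG Λ) : orb y = (y : ell2 Λ →L[ℂ] ell2 Λ) (delta 1) := rfl

theorem orb_mul (y y' : LG Λ) : orb (y * y') = (y : ell2 Λ →L[ℂ] ell2 Λ) (orb y') := rfl

theorem orb_u (s : Λ) : orb (u s) = delta s := by
  change lreg s (delta 1) = delta s
  rw [lreg_delta, mul_one]

theorem denseRange_orb : DenseRange (orb (Λ := Λ)) := by
  have h1 : Dense ((LinearMap.range (orb (Λ := Λ)) : Submodule ℂ (ell2 Λ)) : Set (ell2 Λ)) := by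
    rw [Submodule.dense_iff_topologicalClosure_eq_top,
      Submodule.topologicalClosure_eq_top_iff, Submodule.eq_bot_iff]
    intro x hx
    refine delta_total x fun s => ?_
    rw [Submodule.mem_orthogonal] at hx
    exact hx (delta s) ⟨u s, orb_u s⟩
  exact h1

end delta

variable {Λ : Type} [Group Λ]
  {H : Type} [NormedAddCommGroup H] [InnerProductSpace ℂ H] [CompleteSpace H]

/-- A vector `w` with `‖Ψ(y) w‖ ≤ C ‖y δ_1‖` gives a bounded intertwiner `ℓ²(Λ) → H`. -/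
theorem exists_intertwiner (Ψ : LG Λ →⋆ₙₐ[ℂ] (H →L[ℂ] H)) (w : H) (C : ℝ) (hC0 : 0 ≤ C)
    (hC : ∀ y : LG Λ, ‖Ψ y w‖ ≤ C * ‖orb y‖) :
    ∃ a : ell2 Λ →L[ℂ] H, ‖a‖ ≤ C ∧ (∀ y, a (orb y) = Ψ y w) ∧
      ∀ (y : LG Λ) (ζ : ell2 Λ), a ((y : ell2 Λ →L[ℂ] ell2 Λ) ζ) = Ψ y (a ζ) := by
  set f : LG Λ →ₗ[ℂ] H :=
    { toFun := fun y => Ψ y w
      map_add' := fun y y' => by rw [map_add]; rfl
      map_smul' := fun c y => by rw [map_smul]; rfl } with hf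
  have hfy : ∀ y, f y = Ψ y w := fun y => rfl
  have hb : ∀ y, ‖f y‖ ≤ C * ‖orb y‖ := hC
  have h1 : ∀ y, f.extendOfNorm orb (orb y) = Ψ y w := fun y =>
    LinearMap.extendOfNorm_eq denseRange_orb ⟨C, hb⟩ y
  refine ⟨f.extendOfNorm orb, ?_, h1, ?_⟩
  · refine ContinuousLinearMap.opNorm_le_bound _ hC0 fun ζ => ?_
    exact LinearMap.norm_extendOfNorm_apply_le denseRange_orb C hb ζ
  · intro y ζ
    have h2 : (fun ζ => f.extendOfNorm orb ((y : ell2 Λ →L[ℂ] ell2 Λ) ζ)) =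
        fun ζ => Ψ y (f.extendOfNorm orb ζ) := by
      refine DenseRange.equalizer denseRange_orb ?_ ?_ ?_
      · exact (ContinuousLinearMap.continuous _).comp (ContinuousLinearMap.continuous _)
      · exact (ContinuousLinearMap.continuous _).comp (ContinuousLinearMap.continuous _)
      · funext y'
        change f.extendOfNorm orb ((y : ell2 Λ →L[ℂ] ell2 Λ) (orb y')) =
          Ψ y (f.extendOfNorm orb (orb y'))
        rw [← orb_mul, h1, h1, map_mul]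
        rfl
    exact congrFun h2 ζ

/-- The vectors bounded for `Ψ` in the sense of `exists_intertwiner`. -/
def BddVec (Ψ : LG Λ →⋆ₙₐ[ℂ] (H →L[ℂ] H)) (w : H) : Prop :=
  ∃ C : ℝ, 0 ≤ C ∧ ∀ y : LG Λ, ‖Ψ y w‖ ≤ C * ‖(y : ell2 Λ →L[ℂ] ell2 Λ) (delta 1)‖

/-- If the vectors bounded for `Ψ` are total, then everything commuting with the `Ψ(v_s)` commutes
with the `Ψ(y)`, `y ∈ L(Λ)`. -/
theorem commute_of_bddVec (Ψ : LG Λ →⋆ₙₐ[ℂ] (H →L[ℂ] H)) (h1 : Ψ 1 = 1)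
    (htot : ∀ v : H, (∀ w, BddVec Ψ w → ⟪w, v⟫_ℂ = 0) → v = 0)
    (x : H →L[ℂ] H) (hx : ∀ s : Λ, Commute x (Ψ (u s))) (y : LG Λ) : Commute x (Ψ y) := by
  have key : ∀ w, BddVec Ψ w → ∀ w', BddVec Ψ w' → ⟪w', (x * Ψ y - Ψ y * x) w⟫_ℂ = 0 := by
    rintro w ⟨C, hC0, hC⟩ w' ⟨C', hC'0, hC'⟩
    obtain ⟨a, -, ha, hai⟩ := exists_intertwiner Ψ w C hC0 hC
    obtain ⟨a', -, ha', hai'⟩ := exists_intertwiner Ψ w' C' hC'0 hC'
    have hadj : ∀ (y : LG Λ) (v : H),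
        adjoint a' (Ψ y v) = (y : ell2 Λ →L[ℂ] ell2 Λ) (adjoint a' v) := by
      intro y v
      refine ext_inner_left ℂ fun ζ => ?_
      rw [adjoint_inner_right, ← adjoint_inner_left (Ψ y), ← ContinuousLinearMap.star_eq_adjoint,
        ← map_star, ← hai' (star y) ζ, ← adjoint_inner_right]
      have h3 : ((star y : LG Λ) : ell2 Λ →L[ℂ] ell2 Λ) =
          adjoint (y : ell2 Λ →L[ℂ] ell2 Λ) := rfl
      rw [h3, adjoint_inner_left]
    set X : ell2 Λ →L[ℂ] ell2 Λ := adjoint a' ∘L x ∘L a with hX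
    have hcom : ∀ s : Λ, Commute (lreg s) X := by
      intro s
      refine ContinuousLinearMap.ext fun ζ => ?_
      change ((u s : LG Λ) : ell2 Λ →L[ℂ] ell2 Λ) (adjoint a' (x (a ζ))) =
        adjoint a' (x (a (((u s : LG Λ) : ell2 Λ →L[ℂ] ell2 Λ) ζ)))
      rw [hai, ← hadj]
      have h4 : (x * Ψ (u s)) (a ζ) = (Ψ (u s) * x) (a ζ) := by rw [(hx s).eq]
      exact congrArg _ h4.symm
    have hXmem : X ∈ StarSubalgebra.centralizer ℂ (Set.range (lreg (Γ := Λ))) := by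
      rw [StarSubalgebra.mem_centralizer_iff]
      rintro _ ⟨s, rfl⟩
      rw [star_lreg]
      exact ⟨(hcom s).eq, (hcom s⁻¹).eq⟩
    have h5 : (X : ell2 Λ →L[ℂ] ell2 Λ) * (y : ell2 Λ →L[ℂ] ell2 Λ) =
        (y : ell2 Λ →L[ℂ] ell2 Λ) * X := by
      have h6 : (y : ell2 Λ →L[ℂ] ell2 Λ) ∈ StarSubalgebra.centralizer ℂ
        (StarSubalgebra.centralizer ℂ (Set.range (lreg (Γ := Λ))) :
          Set (ell2 Λ →L[ℂ] ell2 Λ)) := y.2
      rw [StarSubalgebra.mem_centralizer_iff] at h6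
      exact (h6 X hXmem).1
    have hw : a (delta 1) = w := by
      have := ha 1
      rw [h1] at this
      exact this
    have hw' : a' (delta 1) = w' := by
      have := ha' 1
      rw [h1] at this
      exact this
    have h7 := congrArg (fun T : ell2 Λ →L[ℂ] ell2 Λ => T (delta 1)) h5
    change adjoint a' (x (a ((y : ell2 Λ →L[ℂ] ell2 Λ) (delta 1)))) =
      (y : ell2 Λ →L[ℂ] ell2 Λ) (adjoint a' (x (a (delta 1)))) at h7
    rw [hai, ← hadj, hw] at h7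
    change ⟪w', x (Ψ y w) - Ψ y (x w)⟫_ℂ = 0
    rw [← hw', ← adjoint_inner_right, map_sub, h7, sub_self, inner_zero_right]
  -- totality twice
  have h8 : ∀ w, BddVec Ψ w → (x * Ψ y - Ψ y * x) w = 0 := fun w hw =>
    htot _ fun w' hw' => key w hw w' hw'
  have h9 : adjoint (x * Ψ y - Ψ y * x) = 0 := by
    refine ContinuousLinearMap.ext fun v => htot _ fun w hw => ?_
    rw [adjoint_inner_right, h8 w hw, inner_zero_left]
  have h10 : x * Ψ y - Ψ y * x = 0 := by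
    rw [← adjoint_adjoint (x * Ψ y - Ψ y * x), h9, map_zero]
  exact sub_eq_zero.1 h10

/-- A bounded vector generates a Bessel family. -/
theorem tsum_le_of_bound (Ψ : LG Λ →⋆ₙₐ[ℂ] (H →L[ℂ] H)) (w : H) (C : ℝ) (hC0 : 0 ≤ C)
    (hC : ∀ y : LG Λ, ‖Ψ y w‖ ≤ C * ‖(y : ell2 Λ →L[ℂ] ell2 Λ) (delta 1)‖) (v : H) :
    ∑' s : Λ, ‖⟪Ψ (u s) w, v⟫_ℂ‖ₑ ^ 2 ≤ ENNReal.ofReal (C ^ 2) * ‖v‖ₑ ^ 2 := by
  obtain ⟨a, hna, ha, -⟩ := exists_intertwiner Ψ w C hC0 hC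
  have h1 : ∀ s : Λ, ⟪Ψ (u s) w, v⟫_ℂ = adjoint a v s := by
    intro s
    rw [← ha (u s), orb_u, ← adjoint_inner_right, inner_delta]
  calc ∑' s : Λ, ‖⟪Ψ (u s) w, v⟫_ℂ‖ₑ ^ 2 = ∑' s : Λ, ‖adjoint a v s‖ₑ ^ 2 :=
        tsum_congr fun s => by rw [h1]
    _ = ‖adjoint a v‖ₑ ^ 2 := lp_enorm_sq _
    _ ≤ (ENNReal.ofReal C * ‖v‖ₑ) ^ 2 := by
        refine pow_le_pow_left' ?_ 2
        rw [← ofReal_norm, ← ofReal_norm, ← ENNReal.ofReal_mul hC0]
        refine ENNReal.ofReal_le_ofReal ?_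
        refine (le_opNorm _ _).trans ?_
        refine mul_le_mul_of_nonneg_right ?_ (norm_nonneg _)
        rw [LinearIsometryEquiv.norm_map]
        exact hna
    _ = ENNReal.ofReal (C ^ 2) * ‖v‖ₑ ^ 2 := by
        rw [mul_pow, ENNReal.ofReal_pow hC0]

section trace

variable {m : Type} [Fintype m] (V : Λ →* unitary (H →L[ℂ] H))
  (Ψ : LG Λ →⋆ₙₐ[ℂ] (H →L[ℂ] H)) (hΨ : ∀ s : Λ, Ψ (u s) = (V s : H →L[ℂ] H))
  (z : m → H) (t : ℝ)
  (htr : ∀ y y' : LG Λ, ∑ i, ⟪Ψ y (z i), Ψ y' (z i)⟫_ℂ =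
    t * ⟪(y : ell2 Λ →L[ℂ] ell2 Λ) (delta 1), (y' : ell2 Λ →L[ℂ] ell2 Λ) (delta 1)⟫_ℂ)

include htr in
theorem bound_of_trace (i : m) (y : LG Λ) :
    ‖Ψ y (z i)‖ ≤ √t * ‖(y : ell2 Λ →L[ℂ] ell2 Λ) (delta 1)‖ := by
  have h1 := htr y y
  simp only [inner_self_eq_norm_sq_to_K (𝕜 := ℂ)] at h1
  have h2 : ∑ i, ‖Ψ y (z i)‖ ^ 2 = t * ‖(y : ell2 Λ →L[ℂ] ell2 Λ) (delta 1)‖ ^ 2 := by
    apply Complex.ofReal_injective
    push_cast
    exact h1
  have h3 : ‖Ψ y (z i)‖ ^ 2 ≤ t * ‖(y : ell2 Λ →L[ℂ] ell2 Λ) (delta 1)‖ ^ 2 := by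
    rw [← h2]
    exact Finset.single_le_sum (f := fun i => ‖Ψ y (z i)‖ ^ 2) (fun _ _ => by positivity)
      (Finset.mem_univ i)
  rw [← Real.sqrt_sq (norm_nonneg (Ψ y (z i)))]
  refine (Real.sqrt_le_sqrt h3).trans (le_of_eq ?_)
  rw [Real.sqrt_mul' _ (by positivity), Real.sqrt_sq (norm_nonneg _)]

include hΨ htr in
/-- The Bessel bound: `∑_s |⟨V_s z_i, v⟩|² ≤ t ‖v‖²`. -/
theorem bessel_of_trace (ht : 0 ≤ t) (i : m) (v : H) :
    ∑' s : Λ, ‖⟪(V s : H →L[ℂ] H) (z i), v⟫_ℂ‖ₑ ^ 2 ≤ ENNReal.ofReal t * ‖v‖ₑ ^ 2 := by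
  have h := tsum_le_of_bound Ψ (z i) (√t) (Real.sqrt_nonneg _)
    (bound_of_trace Ψ z t htr i) v
  rw [Real.sq_sqrt ht] at h
  simpa only [hΨ] using h

include hΨ htr in
/-- The normalised vectors `z_i` generate a Bessel family. -/
theorem isBFrame_of_trace (ht : 0 < t) :
    IsBFrame V (fun i => (((√(t * Fintype.card m))⁻¹ : ℝ) : ℂ) • z i) := by
  intro v
  set c : ℝ := (√(t * Fintype.card m))⁻¹ with hc
  rw [ENNReal.tsum_prod', tsum_fintype]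
  have h1 : ∀ i : m, ∑' s : Λ, ‖⟪(V s : H →L[ℂ] H) ((c : ℂ) • z i), v⟫_ℂ‖ₑ ^ 2 ≤
      ENNReal.ofReal (c ^ 2 * t) * ‖v‖ₑ ^ 2 := by
    intro i
    have h2 : ∀ s : Λ, ‖⟪(V s : H →L[ℂ] H) ((c : ℂ) • z i), v⟫_ℂ‖ₑ ^ 2 =
        ENNReal.ofReal (c ^ 2) * ‖⟪(V s : H →L[ℂ] H) (z i), v⟫_ℂ‖ₑ ^ 2 := by
      intro s
      rw [map_smul, inner_smul_left, Complex.conj_ofReal, enorm_mul, mul_pow]
      congr 1
      rw [← ofReal_norm, ← ENNReal.ofReal_pow (norm_nonneg _), Complex.norm_real,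
        Real.norm_eq_abs, sq_abs]
    simp only [h2]
    rw [ENNReal.tsum_mul_left, ENNReal.ofReal_mul (by positivity), mul_assoc]
    exact mul_le_mul_right (bessel_of_trace V Ψ hΨ z t htr ht.le i v) _
  refine (Finset.sum_le_sum fun i _ => h1 i).trans ?_
  rw [Finset.sum_const, Finset.card_univ, nsmul_eq_mul, ← mul_assoc]
  refine mul_le_of_le_one_left (zero_le) ?_
  rw [← ENNReal.ofReal_natCast, ← ENNReal.ofReal_mul (by positivity)]
  refine ENNReal.ofReal_le_one.2 ?_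
  rcases Nat.eq_zero_or_pos (Fintype.card m) with h0 | h0
  · rw [h0]; simp
  · have h0' : (0 : ℝ) < Fintype.card m := by exact_mod_cast h0
    rw [hc, inv_pow, Real.sq_sqrt (by positivity)]
    field_simp
    exact le_refl _

include hΨ htr in
/-- **Commutation.** If operators `A` commuting with `Ψ(L(Λ))` move the `z_i` to a total set, then
every operator commuting with all `V_s` commutes with all `Ψ(y)`, `y ∈ L(Λ)`. -/
theorem commute_of_trace (𝒜 : Set (H →L[ℂ] H)) (hA : ∀ A ∈ 𝒜, ∀ y : LG Λ, Commute A (Ψ y))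
    (htot : ∀ v : H, (∀ A ∈ 𝒜, ∀ i, ⟪A (z i), v⟫_ℂ = 0) → v = 0)
    (x : H →L[ℂ] H) (hx : ∀ s : Λ, Commute x (V s : H →L[ℂ] H)) (y : LG Λ) :
    Commute x (Ψ y) := by
  have h1 : Ψ 1 = 1 := by
    have h2 : (1 : LG Λ) = u 1 := by
      apply Subtype.ext
      refine ContinuousLinearMap.ext fun ζ => ?_
      change ζ = lreg 1 ζ
      ext h
      rw [lreg_apply, inv_one, one_mul]
    rw [h2, hΨ, map_one]
    rfl
  refine commute_of_bddVec Ψ h1 (fun v hv => htot v fun A hAm i => hv _ ?_) x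
    (fun s => by rw [hΨ]; exact hx s) y
  refine ⟨‖A‖ * √t, by positivity, fun y => ?_⟩
  have h3 : Ψ y (A (z i)) = A (Ψ y (z i)) :=
    (congrArg (fun T : H →L[ℂ] H => T (z i)) (hA A hAm y).eq).symm
  rw [h3, mul_assoc]
  exact (le_opNorm _ _).trans
    (mul_le_mul_of_nonneg_left (bound_of_trace Ψ z t htr i y) (norm_nonneg _))

end trace

end

end Vale.Agent.P092.H245
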